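import Vale.Agent.Lib.P146.Bridge2

/-! Variance of the SK free energy at every inverse temperature: `n^{6/7}`. -/

set_option autoImplicit false
open MeasureTheory ProbabilityTheory

namespace Vale.Agent.Results.P146.A_var_six_sevenths

/-- Zero-field SK model, all `β > 0`: `F_n ∈ L²` and `Var F_n(β) ≤ C_β n^{6/7}` for every `n ≥ 1`. -/
theorem result (β : ℝ) (hβ : 0 < β) :
    ∃ C : ℝ, ∀ n : ℕ, 1 ≤ n →
      let μ : Measure ({q : Fin n × Fin n // q.1 < q.2} → ℝ) :=
        Measure.pi fun _ => gaussianReal 0 1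
      let F : ({q : Fin n × Fin n // q.1 < q.2} → ℝ) → ℝ := fun g =>
        Real.log (∑ σ : Fin n → Bool, Real.exp (β * ((Real.sqrt n)⁻¹ *
          ∑ q : {q : Fin n × Fin n // q.1 < q.2}, g q *
            ((if σ q.1.1 then 1 else -1) * (if σ q.1.2 then 1 else -1)))))
      MemLp F 2 μ ∧ Var[F; μ] ≤ C * (n : ℝ) ^ ((6 : ℝ) / 7) := by
  obtain ⟨C, hC⟩ := Vale.Agent.Lib.P146.var_FO_bound2 β hβ
  refine ⟨C, fun n hn => ?_⟩
  intro μ F
  have hm : Measurable F := Vale.Agent.Lib.P146.measurable_FO β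
  have hsq : Integrable (fun g => F g ^ 2) μ :=
    Vale.Agent.Lib.P146.integrable_sq_of_growth F hm _ (Vale.Agent.Lib.P146.abs_FO_le β)
  have hmem : MemLp F 2 μ := (memLp_two_iff_integrable_sq hm.aestronglyMeasurable).2 hsq
  refine ⟨hmem, ?_⟩
  rw [variance_eq_sub hmem]
  exact hC n hn

end Vale.Agent.Results.P146.A_var_six_sevenths
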